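import Vale.Agent.P004.R2.H123.Big
import Vale.Agent.P004G.H293.R2

/-!
# P004: second moment of the random Euler product with the mollifier `Mfx` (module R2x)
-/

open Finset Real

namespace P004G.H293.H618

variable [Crv]

open P004.H293

open P004.H628 (yk_pos yk_anti)
open P004G.H628 (mem_Ik Ik_disj)

/-- the big block against the Euler product -/
def StBig2 : Prop :=
  ∃ (C : ℝ) (A : ℕ), 1 ≤ C ∧ ∀ (L K : ℝ) (z : ℂ), 1 ≤ L → 1 ≤ K → K ≤ L → 0 ≤ z.re →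
    EE (Ibx L K) (fun ω => Mbx L K (P004.H628.ffx ω) ^ 2 *
      ∏ p ∈ Ibx L K, ‖Lp p (1 + z) (ω p)‖ ^ 2) ≤ C * K ^ A

lemma mem_Ibx {L K : ℝ} {p : ℕ} : p ∈ Ibx L K ↔ (p : ℝ) ≤ yk L 0 ∧ p.Prime ∧ ¬ p ∣ bd ∧
    yk (L / K) 0 < p := by
  unfold Ibx
  rw [Finset.mem_filter, Finset.mem_range, Nat.lt_succ_iff, Nat.le_floor_iff (yk_pos L 0).le]

lemma Mkx_eq (L K : ℝ) (k : ℕ) (ω : ℕ → ℝ) :
    Mkx L K k (P004.H628.ffx ω) = MM (Ik (L / K) k) (⌈K⌉₊ * lk k) (K / L) ω := by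
  unfold Mkx MM Akx
  rfl

omit [Crv] in
lemma yk_mono {L L' : ℝ} (h : L' ≤ L) (k : ℕ) : yk L' k ≤ yk L k := by
  unfold yk
  apply Real.exp_le_exp.2
  have := Real.exp_pos (-(k : ℝ))
  gcongr

lemma Ibx_sub_QN {L K : ℝ} {N : ℕ} (hN : yk L 0 < N) : Ibx L K ⊆ QN N := by
  intro p hp
  have h := mem_Ibx.1 hp
  rw [mem_QN]
  refine ⟨?_, h.2.1, h.2.2.1⟩
  exact_mod_cast h.1.trans_lt hN

lemma Mbx_depOn (L K : ℝ) : DepOn (Ibx L K) (fun ω => Mbx L K (P004.H628.ffx ω)) := by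
  unfold Mbx
  exact depOn_sum_ffx (T := Abx L K) (fun a ha => (mem_div (fun p hp => (mem_Ibx.1 hp).2.1)
    (Finset.mem_filter.1 ha).1).2) (fun a => muc a * (a : ℝ) ^ (-1 - K / L))

/-- the set of the primes of the big block -/
noncomputable def BB (L K : ℝ) (j : ℕ) : Finset ℕ := if j = 0 then Ibx L K else ∅

lemma BB_sub_QN {L K : ℝ} {N j : ℕ} (hN : yk L 0 < N) : BB L K j ⊆ QN N := by
  unfold BB
  split_ifs
  · exact Ibx_sub_QN hN
  · exact Finset.empty_subset _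

lemma BB_disj {L K : ℝ} (hL : 0 ≤ L / K) (j : ℕ) (J : Finset ℕ) :
    Disjoint (J.biUnion (fun k => Ik (L / K) k)) (BB L K j) := by
  unfold BB
  split_ifs
  · rw [Finset.disjoint_left]
    intro p hp hq
    obtain ⟨k, _, hk⟩ := mem_biUnion.1 hp
    have h1 := (mem_Ik.1 hk).1
    have h2 := (mem_Ibx.1 hq).2.2.2
    have h3 := yk_anti hL (Nat.zero_le k)
    linarith
  · exact Finset.disjoint_empty_right _

/-- expectation of a product over blocks, one more block `B`, and the remaining primes -/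
theorem EE_blocks' {L : ℝ} (hL : 0 ≤ L) {N : ℕ} (hN : yk L 0 < N) (J : Finset ℕ)
    (F : ℕ → (ℕ → ℝ) → ℝ) (hF : ∀ k ∈ J, DepOn (Ik L k) (F k)) {B : Finset ℕ} (hB : B ⊆ QN N)
    (hd : Disjoint (J.biUnion (fun k => Ik L k)) B) (FB : (ℕ → ℝ) → ℝ) (hFB : DepOn B FB)
    (G : ℕ → ℝ → ℝ) :
    EE (range N) (fun ω => ((∏ k ∈ J, F k ω) * FB ω) *
        ∏ p ∈ QN N \ (J.biUnion (fun k => Ik L k) ∪ B), G p (ω p)) =
      ((∏ k ∈ J, EE (Ik L k) (F k)) * EE B FB) *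
        ∏ p ∈ QN N \ (J.biUnion (fun k => Ik L k) ∪ B), E1 p (G p) := by
  set U := J.biUnion (fun k => Ik L k) with hU
  have hUB : U ∪ B ⊆ QN N := Finset.union_subset (Ik_sub_QN hL hN J) hB
  have hsub : (U ∪ B) ∪ (QN N \ (U ∪ B)) ⊆ range N := by
    rw [Finset.union_sdiff_of_subset hUB]
    intro p hp
    exact mem_range.2 (mem_QN.1 hp).1
  have h1 : DepOn U (fun ω => ∏ k ∈ J, F k ω) :=
    DepOn.prod J fun k hk => (hF k hk).mono (Finset.subset_biUnion_of_mem _ hk)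
  have h1' : DepOn (U ∪ B) (fun ω => (∏ k ∈ J, F k ω) * FB ω) :=
    (h1.mono subset_union_left).mul (hFB.mono subset_union_right)
  have h2 : DepOn (QN N \ (U ∪ B)) (fun ω => ∏ p ∈ QN N \ (U ∪ B), G p (ω p)) := by
    intro ω ω' h
    exact Finset.prod_congr rfl fun p hp => by rw [h p hp]
  have h3 : DepOn ((U ∪ B) ∪ (QN N \ (U ∪ B)))
      (fun ω => ((∏ k ∈ J, F k ω) * FB ω) * ∏ p ∈ QN N \ (U ∪ B), G p (ω p)) :=
    (h1'.mono subset_union_left).mul (h2.mono subset_union_right)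
  rw [EE_of_depOn hsub h3, EE_union disjoint_sdiff h1' h2, EE_union hd h1 hFB, hU,
    EE_biUnion J (fun k => Ik L k) (Ik_pairwise hL J) F hF, EE_prod]

lemma LN_split' {L : ℝ} (hL : 0 ≤ L) {N : ℕ} (hN : yk L 0 < N) (J : Finset ℕ) {B : Finset ℕ}
    (hB : B ⊆ QN N) (hd : Disjoint (J.biUnion (fun k => Ik L k)) B) (f : ℕ → ℝ) :
    ∏ p ∈ QN N, f p = ((∏ k ∈ J, ∏ p ∈ Ik L k, f p) * ∏ p ∈ B, f p) *
      ∏ p ∈ QN N \ (J.biUnion (fun k => Ik L k) ∪ B), f p := by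
  rw [← Finset.prod_biUnion (Ik_pairwise hL J), ← Finset.prod_union hd, mul_comm,
    Finset.prod_sdiff (Finset.union_subset (Ik_sub_QN hL hN J) hB)]

omit [Crv] in
lemma fin_num' (A₁ A₂ A₃ : ℕ) {K x : ℝ} (j : ℕ) (hK : 1 ≤ K) (hx : 0 ≤ x) :
    (2 * K * (1 + x)) ^ A₁ * (8001 * K * 8 ^ j) ^ A₂ * K ^ A₃ ≤
      (2 ^ A₁ * 8001 ^ A₂) * (K * 2 ^ j) ^ (A₁ + 3 * A₂ + A₃) * (1 + x) ^ (A₁ + 3 * A₂ + A₃) := by
  have h2j : (1 : ℝ) ≤ 2 ^ j := one_le_pow₀ (by norm_num)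
  have hKj : K ≤ K * 2 ^ j := by nlinarith
  have h1 : K ^ A₁ ≤ (K * 2 ^ j) ^ A₁ := by gcongr
  have h1' : K ^ A₃ ≤ (K * 2 ^ j) ^ A₃ := by gcongr
  have h2 : (K * (8 : ℝ) ^ j) ^ A₂ ≤ (K * 2 ^ j) ^ (3 * A₂) := by
    rw [pow_mul]
    gcongr
    have e : (K * 2 ^ j) ^ 3 = K ^ 3 * 8 ^ j := by
      rw [mul_pow, ← pow_mul, mul_comm j 3, pow_mul]; norm_num
    rw [e]
    have : K ≤ K ^ 3 := le_self_pow₀ hK (by norm_num)
    gcongr
  have h3 : (1 + x) ^ A₁ ≤ (1 + x) ^ (A₁ + 3 * A₂ + A₃) :=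
    pow_le_pow_right₀ (by linarith) (by omega)
  calc (2 * K * (1 + x)) ^ A₁ * (8001 * K * 8 ^ j) ^ A₂ * K ^ A₃
      = (2 ^ A₁ * 8001 ^ A₂) * (K ^ A₁ * (K * 8 ^ j) ^ A₂ * K ^ A₃) * (1 + x) ^ A₁ := by
        rw [mul_pow, mul_pow, show (8001 : ℝ) * K * 8 ^ j = 8001 * (K * 8 ^ j) by ring, mul_pow]
        ring
    _ ≤ (2 ^ A₁ * 8001 ^ A₂) * ((K * 2 ^ j) ^ A₁ * (K * 2 ^ j) ^ (3 * A₂) * (K * 2 ^ j) ^ A₃) *
          (1 + x) ^ (A₁ + 3 * A₂ + A₃) := by gcongr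
    _ = _ := by rw [pow_add (K * 2 ^ j), pow_add (K * 2 ^ j)]

lemma R2_blocks' (hc : StCoef) {L : ℝ} (hL0 : 0 < L) {m : ℕ} (hm : 1 ≤ m) (J : Finset ℕ) {z₀ : ℝ}
    (hz₀ : 0 ≤ z₀) {z : ℂ} (hz : 0 ≤ z.re) :
    ∏ k ∈ J, EE (Ik L k) (fun ω => MM (Ik L k) (m * lk k) z₀ ω ^ 2 *
        ∏ p ∈ Ik L k, ‖Lp p (1 + z) (ω p)‖ ^ 2) ≤
      Real.exp (3 * CP) * Real.exp (∑ p ∈ J.biUnion (fun k => Ik L k),
        6000 * (‖tt p z - tt p z₀‖ * (p : ℝ) ^ (-(1 / 2) : ℝ))) := by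
  have hS : ∀ k, ∀ p ∈ Ik L k, 1 ≤ p := fun k p hp => (Ik_prime hp).one_lt.le
  calc ∏ k ∈ J, EE (Ik L k) (fun ω => MM (Ik L k) (m * lk k) z₀ ω ^ 2 *
        ∏ p ∈ Ik L k, ‖Lp p (1 + z) (ω p)‖ ^ 2)
      ≤ ∏ k ∈ J, (Real.exp (3 * CP * (1 / 3) ^ lk k) *
        Real.exp (∑ p ∈ Ik L k, 6000 * (‖tt p z - tt p z₀‖ * (p : ℝ) ^ (-(1 / 2) : ℝ)))) := by
        refine Finset.prod_le_prod (fun k _ => ?_) fun k _ => ?_
        · refine EE_nonneg (hS k) fun ω _ => ?_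
          have : 0 ≤ ∏ p ∈ Ik L k, ‖Lp p (1 + z) (ω p)‖ ^ 2 :=
            Finset.prod_nonneg fun _ _ => by positivity
          positivity
        · refine (EE_ML (fun p hp => Ik_prime hp) (fun p hp => Ik_three hp) hc (m * lk k) hz₀
            hz).trans ?_
          rw [← Real.exp_add]
          apply Real.exp_le_exp.2
          have h1 := PP_Ik hL0.le k
          have h2 : (1 / 3 : ℝ) ^ (m * lk k) ≤ (1 / 3) ^ lk k :=
            pow_le_pow_of_le_one (by norm_num) (by norm_num)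
              (by calc lk k = 1 * lk k := (one_mul _).symm
                    _ ≤ m * lk k := Nat.mul_le_mul_right _ hm)
          have h3 := one_le_CP
          gcongr
    _ = Real.exp (3 * CP * ∑ k ∈ J, (1 / 3) ^ lk k) *
        Real.exp (∑ p ∈ J.biUnion (fun k => Ik L k),
          6000 * (‖tt p z - tt p z₀‖ * (p : ℝ) ^ (-(1 / 2) : ℝ))) := by
        rw [Finset.prod_mul_distrib, ← Real.exp_sum, ← Real.exp_sum, ← Finset.mul_sum,
          Finset.sum_biUnion (Ik_pairwise hL0.le J)]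
    _ ≤ Real.exp (3 * CP * 1) * Real.exp (∑ p ∈ J.biUnion (fun k => Ik L k),
          6000 * (‖tt p z - tt p z₀‖ * (p : ℝ) ^ (-(1 / 2) : ℝ))) := by
        have := sum_lk J
        have := one_le_CP
        gcongr
    _ = _ := by rw [mul_one]

/-- the blocks `2j ≤ k < ⌈L⌉` of `L / K` -/
noncomputable def UX (L K : ℝ) (j : ℕ) : Finset ℕ :=
  (Ico (2 * j) ⌈L⌉₊).biUnion (fun k => Ik (L / K) k)

lemma R2x_main (hc : StCoef) {CB : ℝ} {L K : ℝ} {j N : ℕ} (hL : 1 ≤ L) (hK : 1 ≤ K)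
    (hKL : K ≤ L) (hN : yk L 0 < N) {z : ℂ} (hz : 0 ≤ z.re) (hCB : 1 ≤ CB)
    (hbig : EE (Ibx L K) (fun ω => Mbx L K (P004.H628.ffx ω) ^ 2 *
      ∏ p ∈ Ibx L K, ‖Lp p (1 + z) (ω p)‖ ^ 2) ≤ CB) :
    EN N (fun X => (Mfx L K (2 * j) ⌈L⌉₊ X) ^ 2 * ‖LN N X (1 + z)‖ ^ 2) ≤
      (Real.exp (3 * CP) * Real.exp (∑ p ∈ UX L K j,
        6000 * (‖tt p z - tt p ((K / L : ℝ) : ℂ)‖ * (p : ℝ) ^ (-(1 / 2) : ℝ)))) * CB *
        Real.exp (3000 * ∑ p ∈ QN N \ (UX L K j ∪ BB L K j), ‖tt p z‖ ^ 2) := by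
  rw [P004.H628.EN_eq]
  have hL0 : 0 < L := by linarith
  have hK0 : 0 < K := by linarith
  have hLK : 0 < L / K := by positivity
  have hLKL : L / K ≤ L := div_le_self hL0.le hK
  have hN' : yk (L / K) 0 < N := (yk_mono hLKL 0).trans_lt hN
  have hm : 1 ≤ ⌈K⌉₊ := Nat.one_le_ceil_iff.2 hK0
  set J := Ico (2 * j) ⌈L⌉₊ with hJ
  have hU : UX L K j = J.biUnion (fun k => Ik (L / K) k) := rfl
  rw [hU]
  have hd := BB_disj (L := L) (K := K) hLK.le j J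
  have hB : BB L K j ⊆ QN N := BB_sub_QN hN
  obtain ⟨FB, hFBdef⟩ : ∃ FB : (ℕ → ℝ) → ℝ, FB = fun ω =>
    (if 2 * j = 0 then Mbx L K (P004.H628.ffx ω) else 1) ^ 2 *
      ∏ p ∈ BB L K j, ‖Lp p (1 + z) (ω p)‖ ^ 2 := ⟨_, rfl⟩
  have hprodDep : ∀ B : Finset ℕ, DepOn B (fun ω => ∏ p ∈ B, ‖Lp p (1 + z) (ω p)‖ ^ 2) := by
    intro B ω ω' h
    exact Finset.prod_congr rfl fun p hp => by rw [h p hp]
  have hFB : DepOn (BB L K j) FB := by
    rw [hFBdef]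
    refine DepOn.mul ?_ (hprodDep _)
    by_cases hj : j = 0
    · have e : BB L K j = Ibx L K := by unfold BB; rw [if_pos hj]
      rw [e]
      have h2 := Mbx_depOn L K
      intro ω ω' h
      have h3 := h2 ω ω' h
      simp only at h3 ⊢
      rw [h3]
    · have hj' : ¬ (2 * j = 0) := by omega
      simp only [if_neg hj']
      intro _ _ _
      rfl
  have hFB_le : EE (BB L K j) FB ≤ CB := by
    rw [hFBdef]
    by_cases hj : j = 0
    · have e : BB L K j = Ibx L K := by unfold BB; rw [if_pos hj]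
      have hj' : 2 * j = 0 := by omega
      rw [e]
      simp only [if_pos hj']
      exact hbig
    · have e : BB L K j = ∅ := by unfold BB; rw [if_neg hj]
      have hj' : ¬ (2 * j = 0) := by omega
      rw [e]
      simp only [if_neg hj', Finset.prod_empty, one_pow, mul_one]
      rw [EE_const]
      exact hCB
  have hFB0 : 0 ≤ EE (BB L K j) FB := by
    refine EE_nonneg (fun p hp => (mem_QN.1 (hB hp)).2.1.one_lt.le) fun ω _ => ?_
    rw [hFBdef]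
    have : 0 ≤ ∏ p ∈ BB L K j, ‖Lp p (1 + z) (ω p)‖ ^ 2 :=
      Finset.prod_nonneg fun _ _ => by positivity
    exact mul_nonneg (sq_nonneg _) this
  have h1 := EE_blocks' hLK.le hN' J
    (fun k ω => MM (Ik (L / K) k) (⌈K⌉₊ * lk k) (K / L) ω ^ 2 *
      ∏ p ∈ Ik (L / K) k, ‖Lp p (1 + z) (ω p)‖ ^ 2)
    (fun k _ => (MM2_depOn (L := L / K) k (⌈K⌉₊ * lk k) (K / L)).mul (hprodDep _))
    hB hd FB hFB
    (fun p x => ‖Lp p (1 + z) x‖ ^ 2)
  have h2 : (fun ω => (Mfx L K (2 * j) ⌈L⌉₊ (P004.H628.ffx ω)) ^ 2 *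
      ‖LN N (P004.H628.ffx ω) (1 + z)‖ ^ 2) =
      fun ω => ((∏ k ∈ J, (MM (Ik (L / K) k) (⌈K⌉₊ * lk k) (K / L) ω ^ 2 *
        ∏ p ∈ Ik (L / K) k, ‖Lp p (1 + z) (ω p)‖ ^ 2)) * FB ω) *
        ∏ p ∈ QN N \ (J.biUnion (fun k => Ik (L / K) k) ∪ BB L K j), ‖Lp p (1 + z) (ω p)‖ ^ 2 := by
    funext ω
    have e1 : Mfx L K (2 * j) ⌈L⌉₊ (P004.H628.ffx ω) =
        (if 2 * j = 0 then Mbx L K (P004.H628.ffx ω) else 1) *
          ∏ k ∈ J, MM (Ik (L / K) k) (⌈K⌉₊ * lk k) (K / L) ω := by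
      unfold Mfx
      congr 1
    rw [e1, LN_eq, norm_prod, mul_pow, ← Finset.prod_pow, ← Finset.prod_pow,
      LN_split' hLK.le hN' J hB hd (fun p => ‖Lp p (1 + z) (ω p)‖ ^ 2), Finset.prod_mul_distrib,
      hFBdef]
    ring
  rw [h2, h1]
  obtain ⟨hB0, hB1⟩ := R2_rest hc (L := L) (N := N)
    (U := J.biUnion (fun k => Ik (L / K) k) ∪ BB L K j) hz
  refine mul_le_mul (mul_le_mul (R2_blocks' hc hLK hm J (by positivity) hz) hFB_le hFB0
    (by positivity)) hB1 hB0 (by positivity)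

lemma R2x_W {L K τ : ℝ} {j : ℕ} (hL0 : 0 < L) (hK : 1 ≤ K) {z : ℂ} (hz : 0 ≤ z.re)
    (hT : ‖z - ((K / L : ℝ) : ℂ)‖ ≤ 10 * K / L + |τ|) :
    ∑ p ∈ UX L K j, 6000 * (‖tt p z - tt p ((K / L : ℝ) : ℂ)‖ * (p : ℝ) ^ (-(1 / 2) : ℝ)) ≤
      384000 * (1 + Real.log (2 * K * (1 + |τ| * L / 2 ^ j))) := by
  have hz₀0 : 0 ≤ K / L := by positivity
  have hLK : 0 < L / K := by positivity
  have hLKL : L / K ≤ L := div_le_self hL0.le hK
  set x : ℝ := |τ| * L / 2 ^ j with hx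
  have hx0 : 0 ≤ x := by positivity
  have h2j : (0 : ℝ) < 2 ^ j := by positivity
  have hlogy := log_yk_le hLK j
  have hlogy1 : L / K / 2 ^ j ≤ L / 2 ^ j := by gcongr
  have hlogy0 : 0 ≤ Real.log (yk (L / K) (2 * j)) := by rw [log_yk]; positivity
  have hlog0 : 0 ≤ Real.log (2 * K * (1 + x)) := by
    apply Real.log_nonneg; nlinarith
  rcases lt_or_ge (yk (L / K) (2 * j)) 2 with h | h
  · have : UX L K j = ∅ := by
      rw [Finset.eq_empty_iff_forall_notMem]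
      intro p hp
      obtain ⟨k, hk, hkp⟩ := mem_biUnion.1 hp
      have h3 : (2 : ℝ) ≤ p := by exact_mod_cast (Ik_prime hkp).two_le
      have h4 := (mem_Ik.1 hkp).1.trans (yk_anti hLK.le (mem_Ico.1 hk).1)
      linarith
    rw [this, Finset.sum_empty]
    positivity
  · have hUp : ∀ p ∈ UX L K j, p.Prime := by
      intro p hp
      obtain ⟨k, _, hk⟩ := mem_biUnion.1 hp
      exact Ik_prime hk
    have hUy : ∀ p ∈ UX L K j, (p : ℝ) ≤ yk (L / K) (2 * j) := by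
      intro p hp
      obtain ⟨k, hk, hkp⟩ := mem_biUnion.1 hp
      exact (mem_Ik.1 hkp).1.trans (yk_anti hLK.le (mem_Ico.1 hk).1)
    set T : ℝ := ‖z - ((K / L : ℝ) : ℂ)‖ with hTdef
    have hT0 : 0 ≤ T := norm_nonneg _
    have h1 := sum_min_log hUp (t := T) hT0 h hUy
    have h2 : ∑ p ∈ UX L K j, 6000 * (‖tt p z - tt p ((K / L : ℝ) : ℂ)‖ *
        (p : ℝ) ^ (-(1 / 2) : ℝ)) ≤ 12000 * ∑ p ∈ UX L K j, min 1 (T * Real.log p) / p := by
      rw [Finset.mul_sum]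
      refine Finset.sum_le_sum fun p hp => ?_
      have := tt_diff (hUp p hp) (z := z) (z₀ := K / L) hz hz₀0
      rw [← hTdef] at this
      linarith
    have h3 : 1 + T * Real.log (yk (L / K) (2 * j)) ≤ 2 * K * (1 + x) := by
      have h4 : T * Real.log (yk (L / K) (2 * j)) ≤
          (10 * K / L + |τ|) * (L / 2 ^ j / 8000) := by
        have : Real.log (yk (L / K) (2 * j)) ≤ L / 2 ^ j / 8000 := by
          rw [le_div_iff₀ (by norm_num)]; exact hlogy.trans hlogy1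
        gcongr
      have h5 : (10 * K / L + |τ|) * (L / 2 ^ j / 8000) ≤ K + x := by
        have e : (10 * K / L + |τ|) * (L / 2 ^ j / 8000) =
            (10 * K / 2 ^ j) / 8000 + x / 8000 := by
          rw [hx]; field_simp
        rw [e]
        have h6 : 10 * K / 2 ^ j ≤ 10 * K := div_le_self (by linarith) (one_le_pow₀ (by norm_num))
        linarith
      nlinarith
    have h4 : Real.log (1 + T * Real.log (yk (L / K) (2 * j))) ≤
        Real.log (2 * K * (1 + x)) := Real.log_le_log (by positivity) h3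
    linarith

lemma R2x_V {L K : ℝ} (hL : 1 ≤ L) (hK : 1 ≤ K) (hKL : K ≤ L) {j N : ℕ} {z : ℂ}
    (hz : 1 / (2 * L) ≤ z.re) :
    ∑ p ∈ QN N \ (UX L K j ∪ BB L K j), ‖tt p z‖ ^ 2 ≤
      264 * (1 + Real.log (8001 * K * 8 ^ j)) := by
  have hL0 : 0 < L := by linarith
  have hK0 : 0 < K := by linarith
  have hLK1 : 1 ≤ L / K := by rw [one_le_div hK0]; exact hKL
  have hLK : 0 < L / K := by positivity
  have hLKL : L / K ≤ L := div_le_self hL0.le hK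
  set y : ℝ := max 2 (yk (L / K) (2 * j)) with hy
  have hy2 : 2 ≤ y := le_max_left _ _
  have hly0 : 0 < Real.log y := Real.log_pos (by linarith)
  have hly : L / K / 8000 * Real.exp (-((2 * j : ℕ) : ℝ)) ≤ Real.log y := by
    rw [← log_yk]
    exact Real.log_le_log (yk_pos _ _) (le_max_right _ _)
  have hpr : ∀ p ∈ QN N \ UX L K j, p.Prime := fun p hp => (mem_QN.1 (mem_sdiff.1 hp).1).2.1
  have hlarge : ∀ p ∈ QN N \ UX L K j, yk (L / K) (2 * j) ≤ p := by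
    intro p hp
    have hceil : ⌈L / K⌉₊ ≤ ⌈L⌉₊ := Nat.ceil_mono hLKL
    refine rest_large hLK1 (N := N) (k₁ := 2 * j) ?_
    rw [mem_sdiff] at hp ⊢
    refine ⟨hp.1, fun h => hp.2 ?_⟩
    obtain ⟨k, hk, hkp⟩ := mem_biUnion.1 h
    exact mem_biUnion.2 ⟨k, mem_Ico.2 ⟨(mem_Ico.1 hk).1, (mem_Ico.1 hk).2.trans_le hceil⟩, hkp⟩
  have h1 := sum_rpow_tail' hpr hy2 (σ := 1 / L) (by positivity)
    (by rw [div_le_one hL0]; exact hL) (fun p hp => by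
      refine max_le ?_ (hlarge p hp)
      exact_mod_cast (hpr p hp).two_le)
  have h2 : ∑ p ∈ QN N \ (UX L K j ∪ BB L K j), ‖tt p z‖ ^ 2 ≤
      ∑ p ∈ QN N \ UX L K j, (p : ℝ) ^ (-1 - 1 / L) := by
    calc ∑ p ∈ QN N \ (UX L K j ∪ BB L K j), ‖tt p z‖ ^ 2
        ≤ ∑ p ∈ QN N \ UX L K j, ‖tt p z‖ ^ 2 :=
          Finset.sum_le_sum_of_subset_of_nonneg
            (Finset.sdiff_subset_sdiff (Finset.Subset.refl _) subset_union_left)
            (fun _ _ _ => by positivity)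
      _ ≤ _ := by
          refine Finset.sum_le_sum fun p hp => ?_
          rw [norm_tt_sq (hpr p hp).pos]
          apply Real.rpow_le_rpow_of_exponent_le (by exact_mod_cast (hpr p hp).one_lt.le)
          have : 1 / L = 2 * (1 / (2 * L)) := by field_simp
          rw [this]
          linarith
  refine h2.trans (h1.trans ?_)
  have h3 : Real.exp (-(1 / L) * Real.log y) ≤ 1 := by
    apply Real.exp_le_one_iff.2
    have : 0 ≤ 1 / L * Real.log y := by positivity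
    linarith
  have h4 : 1 + 1 / (1 / L * Real.log y) ≤ 8001 * K * 8 ^ j := by
    have h5 : 1 / (1 / L * Real.log y) = L / Real.log y := by field_simp
    have h6 : L / Real.log y ≤ 8000 * K * Real.exp ((2 * j : ℕ) : ℝ) := by
      rw [div_le_iff₀ hly0]
      calc L = 8000 * K * Real.exp ((2 * j : ℕ) : ℝ) *
            (L / K / 8000 * Real.exp (-((2 * j : ℕ) : ℝ))) := by
            rw [Real.exp_neg]; field_simp
        _ ≤ _ := by gcongr
    have h7 : Real.exp ((2 * j : ℕ) : ℝ) ≤ 8 ^ j := by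
      have : Real.exp ((2 * j : ℕ) : ℝ) = (Real.exp 2) ^ j := by
        rw [← Real.exp_nat_mul]; congr 1; push_cast; ring
      rw [this]
      have h8 : Real.exp 2 ≤ 8 := by
        have : Real.exp 2 = Real.exp 1 * Real.exp 1 := by rw [← Real.exp_add]; norm_num
        rw [this]
        nlinarith [Real.exp_one_lt_d9, Real.exp_pos 1]
      gcongr
    have h9 : (1 : ℝ) ≤ 8 ^ j := one_le_pow₀ (by norm_num)
    rw [h5]
    have h10 : 8000 * K * Real.exp ((2 * j : ℕ) : ℝ) ≤ 8000 * K * 8 ^ j := by gcongr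
    have h11 : 1 ≤ K * 8 ^ j := by nlinarith
    nlinarith
  have h5 : Real.log (1 + 1 / (1 / L * Real.log y)) ≤ Real.log (8001 * K * 8 ^ j) :=
    Real.log_le_log (by positivity) h4
  have h6 : 0 ≤ Real.log (1 + 1 / (1 / L * Real.log y)) := by
    apply Real.log_nonneg
    have : 0 ≤ 1 / (1 / L * Real.log y) := by positivity
    linarith
  calc 264 * Real.exp (-(1 / L) * Real.log y) * (1 + Real.log (1 + 1 / (1 / L * Real.log y)))
      ≤ 264 * 1 * (1 + Real.log (8001 * K * 8 ^ j)) := by gcongr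
    _ = _ := by ring

theorem pfR2x (hc : StCoef) (hbig : StBig2) : StR2x := by
  obtain ⟨CB, A₃, hCB, hbig⟩ := hbig
  obtain ⟨A₁, hA₁⟩ : ∃ A : ℕ, (A : ℝ) = 384000 := ⟨384000, by norm_num⟩
  obtain ⟨A₂, hA₂⟩ : ∃ A : ℕ, (A : ℝ) = 792000 := ⟨792000, by norm_num⟩
  refine ⟨max 1 (Real.exp (3 * CP) * Real.exp A₁ * Real.exp A₂ * CB *
    (2 ^ A₁ * 8001 ^ A₂)), le_max_left _ _, A₁ + 3 * A₂ + A₃,
    fun L K σ τ j N hL hK hKL hσ hσ' hN => ?_⟩
  have hL0 : 0 < L := by linarith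
  have hσ0 : 0 < σ := lt_of_lt_of_le (by positivity) hσ
  obtain ⟨z, hz⟩ : ∃ z : ℂ, z = σ + τ * Complex.I := ⟨_, rfl⟩
  have hzre : z.re = σ := by simp [hz]
  have hs : (1 : ℂ) + σ + τ * Complex.I = 1 + z := by rw [hz]; ring
  have hT : ‖z - ((K / L : ℝ) : ℂ)‖ ≤ 10 * K / L + |τ| := by
    have : z - ((K / L : ℝ) : ℂ) = ((σ - K / L : ℝ) : ℂ) + (τ : ℂ) * Complex.I := by
      rw [hz]; push_cast; ring
    rw [this]
    refine (norm_add_le _ _).trans ?_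
    rw [Complex.norm_real, norm_mul, Complex.norm_I, mul_one, Complex.norm_real]
    simp only [Real.norm_eq_abs]
    gcongr
    rw [abs_le]
    constructor
    · have : K / L ≤ 10 * K / L := by gcongr; linarith
      linarith
    · have : 0 ≤ K / L := by positivity
      linarith
  have hKA : 1 ≤ K ^ A₃ := one_le_pow₀ hK
  have hmain := R2x_main hc (CB := CB * K ^ A₃) (j := j) hL hK hKL hN (z := z)
    (by rw [hzre]; exact hσ0.le) (by nlinarith) (hbig L K z hL hK hKL (by rw [hzre]; exact hσ0.le))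
  have hWle := R2x_W (j := j) (τ := τ) hL0 hK (z := z) (by rw [hzre]; exact hσ0.le) hT
  have hVle := R2x_V hL hK hKL (j := j) (N := N) (z := z) (by rw [hzre]; exact hσ)
  set x : ℝ := |τ| * L / 2 ^ j with hx
  have hx0 : 0 ≤ x := by positivity
  rw [hs]
  have e1 := exp_nat_log A₁ (t := 2 * K * (1 + x)) (by positivity)
  have e2 := exp_nat_log A₂ (t := 8001 * K * 8 ^ j) (by positivity)
  have hfin := fin_num' A₁ A₂ A₃ j hK hx0
  refine hmain.trans ?_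
  have a1 := Real.exp_le_exp.2 (hWle.trans_eq (by rw [← hA₁]))
  have a2 : Real.exp (3000 * ∑ p ∈ QN N \ (UX L K j ∪ BB L K j), ‖tt p z‖ ^ 2) ≤
      Real.exp (A₂ * (1 + Real.log (8001 * K * 8 ^ j))) := by
    apply Real.exp_le_exp.2
    rw [hA₂]; linarith
  rw [e1] at a1
  rw [e2] at a2
  have hCP0 : 0 < Real.exp (3 * CP) := Real.exp_pos _
  have hE1 : 0 < Real.exp (A₁ : ℝ) := Real.exp_pos _
  have hE2 : 0 < Real.exp (A₂ : ℝ) := Real.exp_pos _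
  generalize Real.exp (3 * CP) = c₁ at *
  generalize Real.exp (A₁ : ℝ) = c₂ at *
  generalize Real.exp (A₂ : ℝ) = c₃ at *
  have hCB0 : 0 < CB := by linarith
  have hR0 : 0 ≤ (K * 2 ^ j) ^ (A₁ + 3 * A₂ + A₃) * (1 + x) ^ (A₁ + 3 * A₂ + A₃) := by positivity
  calc _ ≤ c₁ * (c₂ * (2 * K * (1 + x)) ^ A₁) * (CB * K ^ A₃) *
          (c₃ * (8001 * K * 8 ^ j) ^ A₂) := by
        refine mul_le_mul (mul_le_mul_of_nonneg_right (mul_le_mul_of_nonneg_left a1 hCP0.le)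
          (by positivity)) a2 (Real.exp_pos _).le (by positivity)
    _ = (c₁ * c₂ * c₃ * CB) * ((2 * K * (1 + x)) ^ A₁ * (8001 * K * 8 ^ j) ^ A₂ * K ^ A₃) := by
        ring
    _ ≤ (c₁ * c₂ * c₃ * CB) * ((2 ^ A₁ * 8001 ^ A₂) * (K * 2 ^ j) ^ (A₁ + 3 * A₂ + A₃) *
          (1 + x) ^ (A₁ + 3 * A₂ + A₃)) := mul_le_mul_of_nonneg_left hfin (by positivity)
    _ = (c₁ * c₂ * c₃ * CB * (2 ^ A₁ * 8001 ^ A₂)) * ((K * 2 ^ j) ^ (A₁ + 3 * A₂ + A₃) *
          (1 + x) ^ (A₁ + 3 * A₂ + A₃)) := by ring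
    _ ≤ max 1 (c₁ * c₂ * c₃ * CB * (2 ^ A₁ * 8001 ^ A₂)) * ((K * 2 ^ j) ^ (A₁ + 3 * A₂ + A₃) *
          (1 + x) ^ (A₁ + 3 * A₂ + A₃)) := mul_le_mul_of_nonneg_right (le_max_right _ _) hR0
    _ = _ := by ring

/-- module R2x -/
theorem pfR2xx (hc : StCoef) : StR2x := by
  obtain ⟨C, A, h1, h2⟩ := EE_Big2 hc
  exact pfR2x hc ⟨C, A, h1, fun L K z hL hK _ hz => h2 L K z hL hK hz⟩

end P004G.H293.H618
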